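import Vale.Agent.P132.Fin
import Vale.Agent.P132.T1
import Vale.Agent.P132.T2
import Vale.Agent.P132.BI
import Vale.Agent.P132.Filt
import Vale.Agent.P132.Near
import Vale.Agent.P132.Gam
import Vale.Agent.P132.L0
import Vale.Agent.P132.Eig
import Vale.Agent.P132.Star
import Vale.Agent.P132.Cmp

namespace Vale.Agent.Results.P132.Bicentralizer

open Vale.Agent.P132

universe u

/-- Connes' bicentralizer conjecture: for a type III₁ factor `M` acting in the GNS
representation of a faithful normal state `φ = ⟪ξ, · ξ⟫`, the bicentralizer is `ℂ 1`. -/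
theorem result (H : Type u) [NormedAddCommGroup H] [InnerProductSpace ℂ H] [CompleteSpace H]
    (M : VonNeumannAlgebra H) (ξ : H) (hξ : CycSep M ξ) (_hn : ‖ξ‖ = 1) (hM : IsFactorIII1 M) :
    bicentralizer M ξ = {a | ∃ c : ℂ, a = c • (1 : H →L[ℂ] H)} :=
  final (tt t1 bi filt) near (gam bi filt) (l0 filt)
    (eig (tt t1 bi filt) near (gam bi filt) (l0 filt)) (starS filt) cmp hξ hM

end Vale.Agent.Results.P132.Bicentralizer
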